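import Vale.Agent.Lib.P080.Main

open Vale.Agent.Lib.P080 in
/-- Let `d ≥ 2` and `1 < k < 4 / 3`. A continuous function on `ℝ^d ∖ {0}`, homogeneous of degree
`k`, which is infinity-harmonic on `ℝ^d ∖ {0}` in the viscosity sense vanishes identically. -/
theorem Vale.Agent.Results.P080.HomogeneousVanish.result {d : ℕ} (hd : 2 ≤ d) {k : ℝ}
    (hk1 : 1 < k) (hk2 : k < 4 / 3) (u : EuclideanSpace ℝ (Fin d) → ℝ)
    (hu : IsInfHarmonic u {x | x ≠ 0})
    (hom : ∀ (t : ℝ) (x : EuclideanSpace ℝ (Fin d)), 0 < t → x ≠ 0 → u (t • x) = t ^ k * u x) :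
    ∀ x, x ≠ 0 → u x = 0 := by
  intro x hx
  have hdim : 2 ≤ Module.finrank ℝ (EuclideanSpace ℝ (Fin d)) := by
    rw [finrank_euclideanSpace_fin]; exact hd
  exact homogeneous_eq_zero hdim hk1 hk2 hu hom hx
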